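import Mathlib

/-!
# P201: extensions of a zero-divisor-free group algebra by a unique-product quotient
-/

namespace Vale.Agent.Lib.P201

open Finsupp

variable {K : Type} [Field K] {G : Type} [Group G]

/-- the coefficients of `a` on the left coset `g N`, as an element of `K[N]` -/
noncomputable def leftPart (N : Subgroup G) (a : MonoidAlgebra K G) (g : G) : MonoidAlgebra K N :=
  MonoidAlgebra.ofCoeff (Finsupp.comapDomain (fun n : N => g * (n : G)) a.coeff
    (fun _ _ _ _ h => Subtype.ext (mul_left_cancel h)))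

/-- the coefficients of `b` on the right coset `N g`, as an element of `K[N]` -/
noncomputable def rightPart (N : Subgroup G) (b : MonoidAlgebra K G) (g : G) : MonoidAlgebra K N :=
  MonoidAlgebra.ofCoeff (Finsupp.comapDomain (fun n : N => (n : G) * g) b.coeff
    (fun _ _ _ _ h => Subtype.ext (mul_right_cancel h)))

theorem leftPart_coeff (N : Subgroup G) (a : MonoidAlgebra K G) (g : G) (n : N) :
    (leftPart N a g).coeff n = a.coeff (g * (n : G)) := by
  rfl

theorem rightPart_coeff (N : Subgroup G) (b : MonoidAlgebra K G) (g : G) (n : N) :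
    (rightPart N b g).coeff n = b.coeff ((n : G) * g) := by
  rfl

theorem coeff_mul_coset (N : Subgroup G) [N.Normal] (a b : MonoidAlgebra K G) (g1 g2 : G)
    (huniq : ∀ h h' : G, h ∈ a.coeff.support → h' ∈ b.coeff.support →
      ((h * h' : G) : G ⧸ N) = ((g1 * g2 : G) : G ⧸ N) → ((h : G ⧸ N) = g1))
    (k : N) :
    (a * b).coeff (g1 * (k : G) * g2) = (leftPart N a g1 * rightPart N b g2).coeff k := by
  classical
  rw [MonoidAlgebra.coeff_mul_apply_left, MonoidAlgebra.coeff_mul_apply_left, Finsupp.sum,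
    Finsupp.sum]
  symm
  refine Finset.sum_bij_ne_zero (fun n _ _ => g1 * (n : G)) ?_ ?_ ?_ ?_
  · intro n hn _
    rw [Finsupp.mem_support_iff, leftPart_coeff] at hn
    exact Finsupp.mem_support_iff.mpr hn
  · intro n _ _ n' _ _ h
    exact Subtype.ext (mul_left_cancel h)
  · intro h hh hne
    have hb : b.coeff (h⁻¹ * (g1 * (k : G) * g2)) ≠ 0 := right_ne_zero_of_mul hne
    have hq : ((h * (h⁻¹ * (g1 * (k : G) * g2)) : G) : G ⧸ N) = ((g1 * g2 : G) : G ⧸ N) := by
      have e : h * (h⁻¹ * (g1 * (k : G) * g2)) = g1 * (k : G) * g2 := by group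
      rw [e, QuotientGroup.mk_mul, QuotientGroup.mk_mul, QuotientGroup.mk_mul,
        (QuotientGroup.eq_one_iff (k : G)).mpr k.2, mul_one]
    have h1 := huniq h _ hh (Finsupp.mem_support_iff.mpr hb) hq
    have h2 : g1⁻¹ * h ∈ N := QuotientGroup.eq.mp h1.symm
    have e2 : g1 * (g1⁻¹ * h) = h := by group
    refine ⟨⟨g1⁻¹ * h, h2⟩, ?_, ?_, e2⟩
    · rw [Finsupp.mem_support_iff, leftPart_coeff]
      show a.coeff (g1 * (g1⁻¹ * h)) ≠ 0
      rw [e2]
      exact Finsupp.mem_support_iff.mp hh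
    · rw [leftPart_coeff, rightPart_coeff]
      show a.coeff (g1 * (g1⁻¹ * h)) * b.coeff ((g1⁻¹ * h)⁻¹ * (k : G) * g2) ≠ 0
      have e3 : (g1⁻¹ * h)⁻¹ * (k : G) * g2 = h⁻¹ * (g1 * (k : G) * g2) := by group
      rw [e2, e3]
      exact hne
  · intro n _ _
    rw [leftPart_coeff, rightPart_coeff]
    have e3 : ((n⁻¹ * k : N) : G) * g2 = (g1 * (n : G))⁻¹ * (g1 * (k : G) * g2) := by
      push_cast
      group
    rw [e3]

theorem noZeroDivisors_of_extension (N : Subgroup G) [N.Normal]
    [NoZeroDivisors (MonoidAlgebra K N)] [UniqueProds (G ⧸ N)] :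
    NoZeroDivisors (MonoidAlgebra K G) := by
  classical
  refine ⟨fun {a b} hab => ?_⟩
  by_contra hcon
  push Not at hcon
  obtain ⟨ha, hb⟩ := hcon
  have ha' : a.coeff ≠ 0 := fun h =>
    ha (MonoidAlgebra.coeff_injective (h.trans MonoidAlgebra.coeff_zero.symm))
  have hb' : b.coeff ≠ 0 := fun h =>
    hb (MonoidAlgebra.coeff_injective (h.trans MonoidAlgebra.coeff_zero.symm))
  have hA : (a.coeff.support.image (fun g : G => (g : G ⧸ N))).Nonempty :=
    (Finsupp.support_nonempty_iff.mpr ha').image _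
  have hB : (b.coeff.support.image (fun g : G => (g : G ⧸ N))).Nonempty :=
    (Finsupp.support_nonempty_iff.mpr hb').image _
  obtain ⟨q1, hq1, q2, hq2, hU⟩ := UniqueProds.uniqueMul_of_nonempty hA hB
  obtain ⟨g1, hg1, rfl⟩ := Finset.mem_image.mp hq1
  obtain ⟨g2, hg2, rfl⟩ := Finset.mem_image.mp hq2
  have huniq : ∀ h h' : G, h ∈ a.coeff.support → h' ∈ b.coeff.support →
      ((h * h' : G) : G ⧸ N) = ((g1 * g2 : G) : G ⧸ N) → ((h : G ⧸ N) = g1) := by
    intro h h' hh hh' he
    exact (hU (Finset.mem_image_of_mem _ hh) (Finset.mem_image_of_mem _ hh')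
      (by simpa [QuotientGroup.mk_mul] using he)).1
  have hL : leftPart N a g1 ≠ 0 := by
    intro h
    have h1 := leftPart_coeff N a g1 1
    rw [h] at h1
    simp only [MonoidAlgebra.coeff_zero, Finsupp.coe_zero, Pi.zero_apply, OneMemClass.coe_one,
      mul_one] at h1
    exact (Finsupp.mem_support_iff.mp hg1) h1.symm
  have hR : rightPart N b g2 ≠ 0 := by
    intro h
    have h1 := rightPart_coeff N b g2 1
    rw [h] at h1
    simp only [MonoidAlgebra.coeff_zero, Finsupp.coe_zero, Pi.zero_apply, OneMemClass.coe_one,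
      one_mul] at h1
    exact (Finsupp.mem_support_iff.mp hg2) h1.symm
  have hprod : leftPart N a g1 * rightPart N b g2 ≠ 0 := mul_ne_zero hL hR
  apply hprod
  apply MonoidAlgebra.coeff_injective
  ext k
  rw [← coeff_mul_coset N a b g1 g2 huniq k, hab]
  simp

end Vale.Agent.Lib.P201
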